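import Vale.Agent.P032.S5.H450.OneOne
import Vale.Agent.P032.H471.Two

/-!
# P032: a five coloured centre with one `X`-end and two points of palette `Xᶜ`

Frame `Irr U T` only, no cleanness.  `z` light at `v` (missing colour `f ∈ X`), heavy at `q ≠ q'`
(`Xᶜ ⊆ T z`, palette of `q, q'` is `Xᶜ`), and a colour `d ∈ Xᶜ` stays at `q` and at `q'` on `S(z)`.
`w = v + q - z`, `w' = v + q' - z`.

`two_five` : `w` and `w'` are light at `v` (missing colours `a ≠ b`, `X = {a, b, f}`), both miss `d`,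
`v` is the only point of palette `X` and `q` (resp. `q'`) the only point of palette `Xᶜ` on `S(w)`
(resp. `S(w')`): both are `(1,1)`-centres.
-/

open Set Filter Topology Metric

noncomputable section

namespace Vale.Agent.P032.S5.H450

open Vale.Agent.P032.Six

variable {U : Fin 6 → Set ℂ} {T : ℂ → Set (Fin 6)} {X : Set (Fin 6)} {z v q q' : ℂ} {d f : Fin 6}

namespace Nd

/-- two light centres at `v` with the same missing colour in `Xᶜ` have no further common neighbour
of palette `Xᶜ` -/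
theorem no_common (h : Irr U T) {w w' : ℂ} {a b : Fin 6} (Nw : Nd T X w v q) (Nw' : Nd T X w' v q')
    (ha : a ∈ X) (haw : a ∉ T w) (hb : b ∈ X) (hbw : b ∉ T w') (hd : d ∈ Xᶜ) (hdw : d ∉ T w)
    (hdw' : d ∉ T w') (hne : w ≠ w') {y : ℂ} (hy : dist y w = 1) (hy' : dist y w' = 1)
    (hTy : T y = Xᶜ) : False :=
  hne ((Nw.node_y h ha haw hy hTy).swap.unique h (Nw'.node_y h hb hbw hy' hTy).swap hd hdw hdw')

/-- **the second centres of a five coloured centre with two points of palette `Xᶜ`** -/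
theorem two_five (h : Irr U T) (N : Nd T X z v q) (N' : Nd T X z v q') (hqq : q ≠ q')
    (hf : f ∈ X) (hfz : f ∉ T z) (hXz : Xᶜ ⊆ T z) (hd : d ∈ Xᶜ) (st : Stay T z q d)
    (st' : Stay T z q' d) :
    ∃ a b, a ≠ b ∧ a ≠ f ∧ b ≠ f ∧ X = {a, b, f} ∧ a ∉ T (v + q - z) ∧ b ∉ T (v + q' - z) ∧
      d ∉ T (v + q - z) ∧ d ∉ T (v + q' - z) ∧
      (∀ x, dist x (v + q - z) = 1 → T x = X → x = v) ∧
      (∀ y, dist y (v + q - z) = 1 → T y = Xᶜ → y = q) ∧
      (∀ x, dist x (v + q' - z) = 1 → T x = X → x = v) ∧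
      (∀ y, dist y (v + q' - z) = 1 → T y = Xᶜ → y = q') := by
  set w := v + q - z with hw
  set w' := v + q' - z with hw'
  have Nw : Nd T X w v q := N.other
  have Nw' : Nd T X w' v q' := N'.other
  have hdw : d ∉ T w := N.miss h st
  have hdw' : d ∉ T w' := N'.miss h st'
  have hwz : w ≠ z := N.ne_other
  have hwz' : w' ≠ z := N'.ne_other
  have hww' : w ≠ w' := fun h1 => hqq (by linear_combination h1 - hw + hw')
  have hfw : f ∈ T w := N.mem_other h hf hfz
  have hfw' : f ∈ T w' := N'.mem_other h hf hfz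
  -- isolated `X`-points on `S(z)`
  have iso : ∀ᶠ y in 𝓝[sphere z 1] v, T y = X → y = v := by
    have h3 : ∀ᶠ y in 𝓝 v, y + q ≠ 2 * z := by
      have hc : Continuous fun y : ℂ => y + q := by fun_prop
      exact hc.continuousAt.eventually (isOpen_ne.mem_nhds N.op)
    filter_upwards [mem_nhdsWithin_of_mem_nhds h3, self_mem_nhdsWithin] with y h4 h6 h7
    have Ny : Nd T X z y q :=
      ⟨N.hX, by rw [dist_comm]; exact h6, N.dq, h7, N.Tq, h4⟩
    have h8 := Ny.other.swap.unique h Nw.swap hd (Ny.miss h st) hdw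
    linear_combination h8 + hw
  -- a heavy and a light centre
  have mixed : ∀ {c c' : ℂ} {b : Fin 6} {x : ℂ}, Nd T X c' v x → X ⊆ T c → dist c v = 1 →
      b ∈ X → b ∉ T c' → b ∈ T z → z ≠ c → z + c ≠ 2 * v → c ≠ c' → False := by
    intro c c' b x Nc' hc hcv hb hbc' hbz h1 h2 h3
    rcases Nc'.heavy_line h hb hbc' hcv h3 hc (p' := z) N.dv hbz with h4 | h4
    · exact h1 h4
    · exact h2 h4
  have hin : ∀ {b : Fin 6}, b ∈ X → b ≠ f → b ∈ T z := fun hb hbf =>
    N.rest h hf hfz ⟨hb, hbf⟩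
  have hW : ∃ a ∈ X, a ∉ T w := by
    by_contra hcon
    push Not at hcon
    have hW : X ⊆ T w := hcon
    by_cases hW' : X ⊆ T w'
    · rcases N.heavy_line h hf hfz Nw.dv hwz hW (p' := w') Nw'.dv hfw' with h1 | h1
      · exact hww' h1.symm
      · exact N.no_tangent h hf hfz iso Nw'.dv h1 hW' hW
    · obtain ⟨b, hb, hbw'⟩ := Set.not_subset.1 hW'
      have hbf : b ≠ f := fun h1 => hbw' (h1 ▸ hfw')
      exact mixed Nw' hW Nw.dv hb hbw' (hin hb hbf) hwz.symm
        (fun h1 => N.ne (by linear_combination hw - h1)) hww'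
  obtain ⟨a, ha, haw⟩ := hW
  have haf : a ≠ f := fun h1 => haw (h1 ▸ hfw)
  have hW' : ∃ b ∈ X, b ∉ T w' := by
    by_contra hcon
    push Not at hcon
    exact mixed Nw hcon Nw'.dv ha haw (hin ha haf) hwz'.symm
      (fun h1 => N'.ne (by linear_combination hw' - h1)) hww'.symm
  obtain ⟨b, hb, hbw'⟩ := hW'
  have hbf : b ≠ f := fun h1 => hbw' (h1 ▸ hfw')
  have hab : a ≠ b := fun h1 => hww' (Nw.unique h Nw' ha haw (h1 ▸ hbw'))
  have hXe : X = {a, b, f} := by
    refine (Set.eq_of_subset_of_ncard_le ?_ ?_ (Set.toFinite _)).symm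
    · rintro i (rfl | rfl | rfl)
      exacts [ha, hb, hf]
    · rw [N.hX, H471.ncard_three hab haf hbf]
  have hX3 : ∀ i ∈ X, i = f ∨ i = a ∨ i = b := by
    intro i hi
    rw [hXe] at hi
    rcases hi with h1 | h1 | h1
    exacts [Or.inr (Or.inl h1), Or.inr (Or.inr h1), Or.inl h1]
  -- the fourth vertex of the rhombus `v, w, w'`
  have hno : ∀ y, dist y w = 1 → dist y w' = 1 → T y ≠ Xᶜ := fun y h1 h2 h3 =>
    Nw.no_common h Nw' ha haw hb hbw' hd hdw hdw' hww' h1 h2 h3
  have dw : dist (w + w' - v) w = 1 := by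
    rw [dist_eq_norm, show w + w' - v - w = w' - v by ring, ← dist_eq_norm]
    exact Nw'.dv
  have dw' : dist (w + w' - v) w' = 1 := by
    rw [dist_eq_norm, show w + w' - v - w' = w - v by ring, ← dist_eq_norm]
    exact Nw.dv
  refine ⟨a, b, hab, haf, hbf, hXe, haw, hbw', hdw, hdw',
    fun x h1 h2 => N.xpts h hf hfz hXz hd st h1 h2, fun y h1 h2 => ?_,
    fun x h1 h2 => N'.xpts h hf hfz hXz hd st' h1 h2, fun y h1 h2 => ?_⟩
  · rcases N.ypts h Nw' hX3 hf ha hb hfz haw hbw' hfw hfw' hww' h1 h2 with h3 | h3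
    · exact h3
    · exfalso
      refine hno y h1 ?_ h2
      rw [h3]
      exact dw'
  · rcases N'.ypts h Nw (fun i hi => (hX3 i hi).imp_right Or.symm) hf hb ha hfz hbw' haw hfw' hfw
      hww'.symm h1 h2 with h3 | h3
    · exact h3
    · exfalso
      refine hno y ?_ h1 h2
      rw [h3, show v + q' - z + w - v = w + w' - v by rw [← hw']; ring]
      exact dw

end Nd

end Vale.Agent.P032.S5.H450
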