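import Vale.Agent.P032.S5.H450.Node
import Vale.Agent.P032.S5.H360.Degree
import Vale.Agent.P032.S5.H767.Pts

/-!
# P032: centres of a three coloured point which are no end centres

`v` of palette `X` (three colours).

`other_centre` : `z, w` light at `v` (missing colours `r ≠ a`, `X = {a, b, r}`); a further centre `u`
of `v` with at least four colours, not opposite to `z` or `w`, has `T u = Xᶜ ∪ {s}` with one `s ∈ X`
(**type I**), or it has exactly the colours `a, r` of `X`.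
`other_centre₃` : if there is a third light node (missing colour `b`) then `u` is of type I.
`other_heavy` : the same at `q` for a heavy centre `z` and a light centre `w`.

`typeI_apex` : `u` of type I, `p` the common neighbour of `u` and `v` at distance one of both, at most
three colours at `p`.  Then `p` has exactly two colours `t, t'` of `Xᶜ`, `S(u)` has exact arcs of the
palette `{t, t'}` at `p`, and neither `t` nor `t'` stays on `S(v)` at `p`.
`typeI_same` : the pair is the same at both apexes (`Mn`).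
-/

open Set Filter Topology Metric

noncomputable section

namespace Vale.Agent.P032.S5.H450

open Vale.Agent.P032.Six

variable {U : Fin 6 → Set ℂ} {T : ℂ → Set (Fin 6)} {X : Set (Fin 6)} {z w v q q' u : ℂ}
  {a b r d : Fin 6}

namespace Nd

/-- a further centre of `v` does not have both colours of a light node, if the missing colour is a
colour of a centre off the line -/
theorem not_pair (h : Irr U T) (N : Nd T X w v q) (ha : a ∈ X) (haw : a ∉ T w) (hu : dist u v = 1)
    (huw : u ≠ w) {p : ℂ} (hp : dist p v = 1) (hap : a ∈ T p) (h1 : u ≠ p) (h2 : p + u ≠ 2 * v) :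
    ¬ X \ {a} ⊆ T u := by
  intro hs
  rcases (N.stay h ha haw huw hs).line h hu hp hap with h3 | h3
  · exact h1 h3.symm
  · exact h2 h3

/-- **classification of the other centres** -/
theorem other_centre (h : Irr U T) (N : Nd T X z v q) (N' : Nd T X w v q') (hr : r ∈ X)
    (hrz : r ∉ T z) (ha : a ∈ X) (haw : a ∉ T w) (har : a ≠ r) (hu : dist u v = 1)
    (h4 : 4 ≤ (T u).ncard) (huz : u ≠ z) (huw : u ≠ w) (hoz : z + u ≠ 2 * v)
    (how : w + u ≠ 2 * v) :
    (∃ s ∈ X, T u = insert s Xᶜ) ∨ T u ∩ X = {a, r} := by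
  have hwz : r ∈ T w := N'.rest h ha haw ⟨hr, har.symm⟩
  have hzw : a ∈ T z := N.rest h hr hrz ⟨ha, har⟩
  have k1 : ¬ X \ {r} ⊆ T u := N.not_pair h hr hrz hu huz N'.dv hwz huw how
  have k2 : ¬ X \ {a} ⊆ T u := N'.not_pair h ha haw hu huw N.dv hzw huz hoz
  obtain ⟨b, hbX, hbu, hba, hbr⟩ | hb : (∃ b ∈ X, b ∈ T u ∧ b ≠ a ∧ b ≠ r) ∨
      ∀ b ∈ X, b ∈ T u → b = a ∨ b = r := by
    by_cases h1 : ∃ b ∈ X, b ∈ T u ∧ b ≠ a ∧ b ≠ r
    · exact Or.inl h1
    · push Not at h1
      right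
      intro b h2 h3
      by_cases h4 : b = a
      · exact Or.inl h4
      · exact Or.inr (h1 b h2 h3 h4)
  · -- `b` is a colour of `u`: then `a` and `r` are not
    have hX : X = {a, b, r} := by
      refine (Set.eq_of_subset_of_ncard_le ?_ ?_ (Set.toFinite _)).symm
      · rintro i (rfl | rfl | rfl)
        exacts [ha, hbX, hr]
      · rw [N.hX, Set.ncard_insert_of_notMem (by simp [hba.symm, har]) (Set.toFinite _),
          Set.ncard_pair hbr]
    have hau : a ∉ T u := by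
      intro h1
      refine k1 fun i hi => ?_
      rw [hX] at hi
      rcases hi.1 with h2 | h2 | h2
      · exact h2 ▸ h1
      · exact h2 ▸ hbu
      · exact absurd h2 hi.2
    have hru : r ∉ T u := by
      intro h1
      refine k2 fun i hi => ?_
      rw [hX] at hi
      rcases hi.1 with h2 | h2 | h2
      · exact absurd h2 hi.2
      · exact h2 ▸ hbu
      · exact h2 ▸ h1
    refine Or.inl ⟨b, hbX, ?_⟩
    refine Set.eq_of_subset_of_ncard_le ?_ ?_ (Set.toFinite _)
    · intro i hi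
      by_cases h1 : i ∈ X
      · rw [hX] at h1
        rcases h1 with h2 | h2 | h2
        · exact absurd (h2 ▸ hi) hau
        · exact Or.inl h2
        · exact absurd (h2 ▸ hi) hru
      · exact Or.inr h1
    · rw [Set.ncard_insert_of_notMem (show b ∉ Xᶜ from fun h1 => h1 hbX) (Set.toFinite _), N.hXc]
      exact h4
  · by_cases h1 : a ∈ T u ∧ r ∈ T u
    · refine Or.inr (Subset.antisymm (fun i hi => hb i hi.2 hi.1) ?_)
      rintro i (rfl | rfl)
      exacts [⟨h1.1, ha⟩, ⟨h1.2, hr⟩]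
    · -- at most one colour of `X`
      have key : ∃ s ∈ X, ∀ i ∈ X, i ∈ T u → i = s := by
        by_cases h2 : a ∈ T u
        · refine ⟨a, ha, fun i hi hiu => ?_⟩
          rcases hb i hi hiu with h3 | h3
          · exact h3
          · exact absurd ⟨h2, h3 ▸ hiu⟩ h1
        · refine ⟨r, hr, fun i hi hiu => ?_⟩
          rcases hb i hi hiu with h3 | h3
          · exact absurd (h3 ▸ hiu) h2
          · exact h3
      obtain ⟨s, hs, hs'⟩ := key
      refine Or.inl ⟨s, hs, ?_⟩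
      refine Set.eq_of_subset_of_ncard_le ?_ ?_ (Set.toFinite _)
      · intro i hi
        by_cases h3 : i ∈ X
        · exact Or.inl (hs' i h3 hi)
        · exact Or.inr h3
      · rw [Set.ncard_insert_of_notMem (show s ∉ Xᶜ from fun h1 => h1 hs) (Set.toFinite _), N.hXc]
        exact h4

/-- **three light nodes**: every other centre, not opposite, is of type I -/
theorem other_centre₃ (h : Irr U T) (N : Nd T X z v q) (N' : Nd T X w v q') {w' q'' : ℂ}
    (N'' : Nd T X w' v q'') (hr : r ∈ X) (hrz : r ∉ T z) (ha : a ∈ X) (haw : a ∉ T w)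
    (hb : b ∈ X) (hbw : b ∉ T w') (har : a ≠ r) (hba : b ≠ a) (hbr : b ≠ r) (hu : dist u v = 1)
    (h4 : 4 ≤ (T u).ncard) (huz : u ≠ z) (huw : u ≠ w) (huw' : u ≠ w') (hoz : z + u ≠ 2 * v)
    (how : w + u ≠ 2 * v) : ∃ s ∈ X, T u = insert s Xᶜ := by
  rcases N.other_centre h N' hr hrz ha haw har hu h4 huz huw hoz how with h1 | h1
  · exact h1
  · exfalso
    have hbz : b ∈ T z := N.rest h hr hrz ⟨hb, hbr⟩
    refine N''.not_pair h hb hbw hu huw' N.dv hbz huz hoz fun i hi => ?_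
    have hX : X = {a, b, r} := by
      refine (Set.eq_of_subset_of_ncard_le ?_ ?_ (Set.toFinite _)).symm
      · rintro i (rfl | rfl | rfl)
        exacts [ha, hb, hr]
      · rw [N.hX, Set.ncard_insert_of_notMem (by simp [hba.symm, har]) (Set.toFinite _),
          Set.ncard_pair hbr]
    have h2 : i ∈ ({a, r} : Set (Fin 6)) := by
      have h3 := hi.1
      rw [hX] at h3
      rcases h3 with h4 | h4 | h4
      · exact Or.inl h4
      · exact absurd h4 hi.2
      · exact Or.inr h4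
    rw [← h1] at h2
    exact h2.1

/-- **the other centres of `q`** for a heavy centre `z` and a light centre `w` (missing colour `d`) -/
theorem other_heavy (h : Irr U T) (N' : Nd T X w q v) (hd : d ∈ X) (hdw : d ∉ T w)
    (hz : dist z q = 1) (hzX : X ⊆ T z) (hzw : z ≠ w) (hu : dist u q = 1) (h4 : 4 ≤ (T u).ncard)
    (huz : u ≠ z) (huw : u ≠ w) (hoz : z + u ≠ 2 * q) :
    ∃ s ∈ X, s ≠ d ∧ T u = insert s Xᶜ := by
  have k1 : ¬ X \ {d} ⊆ T u := N'.not_pair h hd hdw hu huw hz (hzX hd) huz hoz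
  have k2 : d ∉ T u := by
    intro h1
    rcases N'.heavy_line h hd hdw hz hzw hzX hu h1 with h2 | h2
    · exact huz h2
    · exact hoz (by linear_combination h2)
  -- at most one colour of `X`
  have h5 : (T u ∩ X).ncard ≤ 1 := by
    by_contra hcon
    push Not at hcon
    have h6 : T u ∩ X ⊆ X \ {d} := fun i hi => ⟨hi.2, fun h7 => k2 (by
      rw [mem_singleton_iff] at h7; exact h7 ▸ hi.1)⟩
    have h7 : T u ∩ X = X \ {d} := Set.eq_of_subset_of_ncard_le h6
      (by rw [N'.two_sdiff hd]; exact hcon) (Set.toFinite _)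
    exact k1 (h7 ▸ inter_subset_left)
  have h8 := Set.ncard_inter_add_ncard_sdiff_eq_ncard (T u) X (Set.toFinite _)
  have h9 : T u \ X ⊆ Xᶜ := fun i hi => hi.2
  have h10 := Set.ncard_le_ncard h9 (Set.toFinite _)
  rw [N'.hXc] at h10
  have h11 : (T u ∩ X).ncard = 1 := by omega
  obtain ⟨s, hs⟩ := Set.ncard_eq_one.1 h11
  have hsX : s ∈ T u ∩ X := by rw [hs]; rfl
  have h12 : T u \ X = Xᶜ := Set.eq_of_subset_of_ncard_le h9 (by rw [N'.hXc]; omega)
    (Set.toFinite _)
  refine ⟨s, hsX.2, fun h13 => k2 (h13 ▸ hsX.1), ?_⟩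
  ext i
  constructor
  · intro hi
    by_cases h13 : i ∈ X
    · left
      have h14 : i ∈ T u ∩ X := ⟨hi, h13⟩
      rw [hs] at h14
      exact h14
    · exact Or.inr h13
  · rintro (rfl | h13)
    · exact hsX.1
    · rw [← h12] at h13
      exact h13.1

end Nd

end Vale.Agent.P032.S5.H450

namespace Vale.Agent.P032.Six

open Vale.Agent.P032.S5

variable {U : Fin 6 → Set ℂ} {T : ℂ → Set (Fin 6)} {v u p p' : ℂ}

/-- a third vertex of a unit triangle is not opposite -/
theorem tri_off298 {v u p : ℂ} (huv : dist u v = 1) (hpv : dist p v = 1) :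
    u + v ≠ 2 * p := by
  intro h1
  have h2 : u - v = 2 * (p - v) := by linear_combination h1
  have h3 : dist u v = 2 := by
    rw [dist_eq_norm, h2, norm_mul, ← dist_eq_norm, hpv]; simp
  rw [h3] at huv; norm_num at huv

/-- **the apex of a type I centre** -/
theorem Irr.typeI_apex (h : Irr U T) (hv : (T v).ncard = 3) (hu : (T v)ᶜ ⊆ T u)
    (h4 : (T u).ncard = 4) (huv : dist u v = 1) (hpv : dist p v = 1) (hpu : dist p u = 1)
    (hp : (T p).ncard ≤ 3) :
    ∃ t t', t ≠ t' ∧ T p ∩ (T v)ᶜ = {t, t'} ∧ p ∈ closure (H767.Ex T u {t, t'}) ∧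
      (∃ᶠ y in 𝓝[sphere v 1] p, t ∉ T y) ∧ ∃ᶠ y in 𝓝[sphere v 1] p, t' ∉ T y := by
  have hvc : (T v)ᶜ.ncard = 3 := H450.ncard_compl_three' hv
  have hvu : dist v u = 1 := by rw [dist_comm]; exact huv
  -- one colour of `T v` at `u`
  have h1 : (T u ∩ T v).ncard = 1 := by
    have h8 := Set.ncard_inter_add_ncard_sdiff_eq_ncard (T u) (T v) (Set.toFinite _)
    have h9 : T u \ T v = (T v)ᶜ := Subset.antisymm (fun i hi => hi.2) fun i hi => ⟨hu hi, hi⟩
    rw [h9] at h8
    omega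
  obtain ⟨s, hs⟩ := Set.ncard_eq_one.1 h1
  -- no colour of the complement stays on `S(v)`
  have nst : ∀ t ∈ (T v)ᶜ, ¬ ∀ᶠ y in 𝓝[sphere v 1] p, t ∈ T y := by
    intro t ht hst
    rcases h.mx.partner_line (u := v) (p := p) (t := t) hpv (hst.mono fun y hy => h.sub y hy) hpu
      (h.sub u (hu ht)) with h2 | h2
    · rw [h2, dist_self] at huv; exact zero_ne_one huv
    · exact tri_off298 huv hpv h2
  -- every palette on `S(v)` near `p` has a colour of `T p` outside `T v`
  have hev : ∀ᶠ y in 𝓝[sphere v 1] p, ∃ t ∈ T p ∩ (T v)ᶜ, t ∈ T y := by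
    filter_upwards [mem_nhdsWithin_of_mem_nhds (h.nhd p), self_mem_nhdsWithin] with y h2 h3
    obtain ⟨t, ht, htv⟩ := h.not_sub' (x := v) (y := y) h3 (by omega)
    exact ⟨t, ⟨h2 ht, htv⟩, ht⟩
  have hsub : T p ∩ (T v)ᶜ ⊆ (T v)ᶜ := inter_subset_right
  have hle := Set.ncard_le_ncard hsub (Set.toFinite _)
  have hge : 2 ≤ (T p ∩ (T v)ᶜ).ncard := by
    by_contra hcon
    have h5 : (T p ∩ (T v)ᶜ).ncard ≤ 1 := by omega
    obtain ⟨t0, ht0, -⟩ := (hev.self_of_nhdsWithin (show p ∈ sphere v 1 from hpv))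
    refine nst t0 ht0.2 (hev.mono fun y hy => ?_)
    obtain ⟨t, ht, hty⟩ := hy
    have h6 := (Set.ncard_le_one (Set.toFinite _)).1 h5 t ht t0 ht0
    exact h6 ▸ hty
  have hne : (T p ∩ (T v)ᶜ).ncard ≠ 3 := by
    intro h5
    have h6 : T p ∩ (T v)ᶜ = (T v)ᶜ := Set.eq_of_subset_of_ncard_le hsub
      (by rw [h5, hvc]) (Set.toFinite _)
    have h7 : T p = (T v)ᶜ := by
      refine (Set.eq_of_subset_of_ncard_le (fun i hi => ?_) (by rw [hvc]; exact hp)
        (Set.toFinite _)).symm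
      have h8 : i ∈ T p ∩ (T v)ᶜ := by rw [h6]; exact hi
      exact h8.1
    have hvp : v ≠ p := by
      rintro rfl
      rw [dist_self] at hpv; exact zero_ne_one hpv
    obtain ⟨t, ht1, ht2, ht3⟩ := h.five (u := v) (u' := p) (q := u) hp
      (fun i => by rw [h7]; exact em _) hvp huv (by rw [dist_comm]; exact hpu)
      (fun h9 => tri_off298 (v := v) (u := p) (p := u) hpv huv (by rw [add_comm]; exact h9)) s
    have h10 : t ∈ T u ∩ T v := ⟨ht1, ht2⟩
    rw [hs] at h10
    exact ht3 h10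
  have h2 : (T p ∩ (T v)ᶜ).ncard = 2 := by omega
  obtain ⟨t, t', htt, hT⟩ := Set.ncard_eq_two.1 h2
  have ht : t ∈ T p ∩ (T v)ᶜ := by rw [hT]; exact Or.inl rfl
  have ht' : t' ∈ T p ∩ (T v)ᶜ := by rw [hT]; exact Or.inr rfl
  refine ⟨t, t', htt, hT, ?_, ?_, ?_⟩
  · -- exact arcs of `S(u)`
    by_contra hcl
    have hPu : ({t, t'} : Set (Fin 6)) ⊆ T u := by
      rintro i (rfl | rfl)
      exacts [hu ht.2, hu ht'.2]
    have hnex : ∀ᶠ y in 𝓝[sphere u 1] p, ¬ T y ⊆ {t, t'} := by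
      have h3 : ∀ᶠ y in 𝓝 p, y ∉ H767.Ex T u {t, t'} := by
        rw [mem_closure_iff_frequently] at hcl
        exact not_frequently.1 hcl
      filter_upwards [mem_nhdsWithin_of_mem_nhds h3, self_mem_nhdsWithin] with y h4 h5 h6
      exact h4 ⟨h5, h.pair_open (Set.ncard_pair htt) hPu h6⟩
    -- a colour of `T v` at `p`
    have hx : ∃ x ∈ T v, ∀ i ∈ T p, i = t ∨ i = t' ∨ i = x := by
      by_cases h5 : T p ⊆ {t, t'}
      · obtain ⟨x, hx⟩ : (T v).Nonempty :=
          Set.nonempty_of_ncard_ne_zero (by rw [hv]; norm_num)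
        exact ⟨x, hx, fun i hi => (h5 hi).imp_right fun h6 => Or.inl h6⟩
      · obtain ⟨x, hx, hxt⟩ := Set.not_subset.1 h5
        have hxv : x ∈ T v := by
          by_contra h6
          exact hxt (hT ▸ (⟨hx, h6⟩ : x ∈ T p ∩ (T v)ᶜ))
        refine ⟨x, hxv, fun i hi => ?_⟩
        by_contra hcon
        push Not at hcon
        have h6 : ({i, t, t', x} : Set (Fin 6)) ⊆ T p := by
          rintro m (rfl | rfl | rfl | rfl)
          exacts [hi, ht.1, ht'.1, hx]
        have h7 := Set.ncard_le_ncard h6 (Set.toFinite _)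
        have h8 : t ≠ x := fun h9 => hxt (by rw [← h9]; exact Or.inl rfl)
        have h9 : t' ≠ x := fun h9 => hxt (by rw [← h9]; exact Or.inr rfl)
        rw [Set.ncard_insert_of_notMem (by simp [hcon.1, hcon.2.1, hcon.2.2]) (Set.toFinite _),
          Set.ncard_insert_of_notMem (by simp [htt, h8]) (Set.toFinite _),
          Set.ncard_pair h9] at h7
        omega
    obtain ⟨x, hxv, hx⟩ := hx
    have hst : ∀ᶠ y in 𝓝[sphere u 1] p, x ∈ T y := by
      filter_upwards [hnex, mem_nhdsWithin_of_mem_nhds (h.nhd p)] with y h5 h6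
      obtain ⟨i, hi, hit⟩ := Set.not_subset.1 h5
      rcases hx i (h6 hi) with h7 | h7 | h7
      · exact absurd (Or.inl h7) hit
      · exact absurd (Or.inr h7) hit
      · exact h7 ▸ hi
    rcases h.mx.partner_line (u := u) (p := p) (t := x) hpu (hst.mono fun y hy => h.sub y hy) hpv
      (h.sub v hxv) with h5 | h5
    · rw [h5, dist_self] at hvu; exact zero_ne_one hvu
    · exact tri_off298 hvu hpu h5
  · exact not_eventually.1 (nst t ht.2)
  · exact not_eventually.1 (nst t' ht'.2)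

/-- **the pair of a type I centre** is the same at both apexes -/
theorem Irr.typeI_same (h : Irr U T)
    (hmin : ∀ z, 4 ≤ (T z).ncard → ∀ s, s ⊆ T z → s ≠ T z →
      ¬ ∀ᶠ w in 𝓝 z, ∃ i ∈ s, w ∈ U i ∨ (w ∈ XX U ∧ i ∈ Pal U w))
    (hv : (T v).ncard = 3) (hu : (T v)ᶜ ⊆ T u) (h4 : (T u).ncard = 4) (huv : dist u v = 1)
    (hpv : dist p v = 1) (hpu : dist p u = 1) (hp : (T p).ncard ≤ 3)
    (hpv' : dist p' v = 1) (hpu' : dist p' u = 1) (hp' : (T p').ncard ≤ 3) :
    ∃ t t', t ≠ t' ∧ T p ∩ (T v)ᶜ = {t, t'} ∧ T p' ∩ (T v)ᶜ = {t, t'} ∧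
      p ∈ closure (H767.Ex T u {t, t'}) ∧ p' ∈ closure (H767.Ex T u {t, t'}) ∧
      (∃ᶠ y in 𝓝[sphere v 1] p, t ∉ T y) ∧ (∃ᶠ y in 𝓝[sphere v 1] p, t' ∉ T y) ∧
      (∃ᶠ y in 𝓝[sphere v 1] p', t ∉ T y) ∧ ∃ᶠ y in 𝓝[sphere v 1] p', t' ∉ T y := by
  obtain ⟨t, t', htt, hT, hcl, f1, f2⟩ := h.typeI_apex hv hu h4 huv hpv hpu hp
  obtain ⟨s, s', hss, hS, hcl', g1, g2⟩ := h.typeI_apex hv hu h4 huv hpv' hpu' hp'
  have hvc : (T v)ᶜ.ncard = 3 := H450.ncard_compl_three' hv
  have e1 : ({t, t'} : Set (Fin 6)) ⊆ (T v)ᶜ := by rw [← hT]; exact inter_subset_right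
  have e2 : ({s, s'} : Set (Fin 6)) ⊆ (T v)ᶜ := by rw [← hS]; exact inter_subset_right
  obtain ⟨y, hy⟩ : (H767.Ex T u {t, t'}).Nonempty := closure_nonempty_iff.1 ⟨p, hcl⟩
  obtain ⟨y', hy'⟩ : (H767.Ex T u {s, s'}).Nonempty := closure_nonempty_iff.1 ⟨p', hcl'⟩
  have hyT := H767.ex_self hy
  have hyT' := H767.ex_self hy'
  have heq : ({t, t'} : Set (Fin 6)) = {s, s'} := by
    rcases h.pairs_disjoint hmin h4 hy.1 hy'.1 (by rw [hyT]; exact e1.trans hu)
      (by rw [hyT']; exact e2.trans hu) (by rw [hyT, Set.ncard_pair htt])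
      (by rw [hyT', Set.ncard_pair hss]) with h5 | h5
    · rw [← hyT, ← hyT']; exact h5
    · exfalso
      rw [hyT, hyT'] at h5
      have h6 := Set.ncard_union_eq h5 (Set.toFinite _) (Set.toFinite _)
      have h7 := Set.ncard_le_ncard (union_subset e1 e2) (Set.toFinite _)
      rw [h6, Set.ncard_pair htt, Set.ncard_pair hss] at h7
      omega
  have g : (∃ᶠ y in 𝓝[sphere v 1] p', t ∉ T y) ∧ ∃ᶠ y in 𝓝[sphere v 1] p', t' ∉ T y := by
    have k1 : ∀ i ∈ ({s, s'} : Set (Fin 6)), ∃ᶠ y in 𝓝[sphere v 1] p', i ∉ T y := by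
      rintro i (rfl | rfl)
      exacts [g1, g2]
    rw [← heq] at k1
    exact ⟨k1 t (Or.inl rfl), k1 t' (Or.inr rfl)⟩
  exact ⟨t, t', htt, hT, hS.trans heq.symm, hcl, heq ▸ hcl', f1, f2, g.1, g.2⟩

end Vale.Agent.P032.Six
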